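import Vale.Agent.P004E.H383.FE2

/-!
# P004E, module S4: the functional equation for unit windows (`StTF → StFE`)
-/

open Real MeasureTheory Set Filter
open scoped ENNReal Topology

namespace P004E

open P004G

namespace FE

/-- exponential decay of an exponential sum -/
lemma TF_dom {f : ArithmeticFunction ℤ} (hf : Z.PB f) {w : ℝ} (hw : 0 < w) :
    ∃ M : ℝ, 0 ≤ M ∧ ∀ v : ℝ, w ≤ v → |Z.TF f v| ≤ M * Real.exp (-v) := by
  have hpi : 0 < Real.pi - 1 := by linarith [Real.pi_gt_three]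
  have hpi0 := Real.pi_pos
  have hw' : 0 < (Real.pi - 1) * w / Real.pi := by positivity
  have hs := Z.summable_TF hf hw'
  refine ⟨4 * ∑' n : ℕ, |(f n : ℝ)| * Real.exp (-Real.pi * n * ((Real.pi - 1) * w / Real.pi)), ?_, ?_⟩
  · exact mul_nonneg (by norm_num) (tsum_nonneg fun n => by positivity)
  intro v hv
  unfold Z.TF
  rw [abs_mul, abs_of_pos (by norm_num : (0 : ℝ) < 4), mul_assoc]
  apply mul_le_mul_of_nonneg_left _ (by norm_num)
  rw [← tsum_mul_right]
  have h1 : ‖∑' n : ℕ, (f n : ℝ) * Real.exp (-Real.pi * n * v)‖ ≤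
      ∑' n : ℕ, |(f n : ℝ)| * Real.exp (-Real.pi * n * ((Real.pi - 1) * w / Real.pi)) *
        Real.exp (-v) := by
    refine tsum_of_norm_bounded (hs.mul_right _).hasSum fun n => ?_
    rw [norm_mul, Real.norm_eq_abs, Real.norm_of_nonneg (Real.exp_pos _).le]
    rcases Nat.eq_zero_or_pos n with rfl | hn
    · simp
    · rw [mul_assoc |(f n : ℝ)|]
      refine mul_le_mul_of_nonneg_left ?_ (abs_nonneg _)
      rw [← Real.exp_add]
      apply Real.exp_le_exp.2
      have hn1 : (1 : ℝ) ≤ n := by exact_mod_cast hn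
      have e : -Real.pi * n * ((Real.pi - 1) * w / Real.pi) = -((Real.pi - 1) * (n * w)) := by
        field_simp
      rw [e]
      have h2 : (n : ℝ) * w ≤ n * v := by gcongr
      have h3 : v ≤ n * v := by nlinarith [hw.trans_le hv]
      nlinarith [mul_le_mul_of_nonneg_left h2 hpi.le]
  exact h1

/-- the weights of the smooth part -/
noncomputable def bw (S a : ℕ) : ℝ := (Nat.factoredNumbers S.primeFactors : Set ℕ).indicator Z.wt a

lemma bw_nonneg (S a : ℕ) : 0 ≤ bw S a := by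
  unfold bw
  exact Set.indicator_nonneg (fun n _ => Z.wt_nonneg n) a

lemma bw_zero (S : ℕ) : bw S 0 = 0 := by
  unfold bw
  have h : Z.wt 0 = 0 := by unfold Z.wt; simp
  by_cases h0 : (0 : ℕ) ∈ (Nat.factoredNumbers S.primeFactors : Set ℕ)
  · rw [Set.indicator_of_mem h0, h]
  · rw [Set.indicator_of_notMem h0]

lemma W2_eq (S : ℕ) : Z.W2 S = ∑' a, ENNReal.ofReal (bw S a) := rfl

lemma sf_le_bw (S : ℕ) {A : ℕ → ℤ} (hA : LD A) (a : ℕ) : |(Z.sf S A a : ℝ)| / a ≤ bw S a := by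
  unfold bw
  by_cases h : a ∈ (Nat.factoredNumbers S.primeFactors : Set ℕ)
  · rw [Set.indicator_of_mem h]
    unfold Z.wt
    gcongr
    exact Z.PB_sf S hA a
  · rw [Set.indicator_of_notMem h]
    have h0 : Z.sf S A a = 0 := by
      by_contra h1
      apply h
      rw [Nat.mem_factoredNumbers_iff_primeFactors_subset]
      refine ⟨?_, ?_⟩
      · rintro rfl
        simp at h1
      · by_contra h2
        exact h1 (Z.sf_apply' S A h2)
    rw [h0]
    simp

variable [Crv]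

lemma Tw_Wi (m : ℤ) (u : ℝ) (k : ℝ → ℝ) : Tw m u k = Wi (theta m) u k := rfl

/-- the dual windows, for one `m` -/
lemma pointwise {A : ℕ → ℤ} {q κ : ℝ} (hA : LD A) (hF : FEq A q κ) {m : ℤ}
    (hm : ∀ n : ℕ, n.Coprime bd → A n = ca n * jacobiSym m n) {u : ℝ} (hu : 0 < u)
    {k : ℝ → ℝ} (hk : Kn 0 k) :
    ENNReal.ofReal (Tw m u k ^ 2) ≤ Z.W1 bd * ∑ d ∈ (Z.K0 bd).divisors, ENNReal.ofReal (Z.wt d) *
      (Z.W2 bd * ∑' a : ℕ, ENNReal.ofReal (bw bd a) *
        ENNReal.ofReal (Tw m (a * (1 / (Real.exp 1 * q * (d * u)))) (rf k) ^ 2)) := by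
  have hq : 0 < q := hF.1
  have hTHc : ContinuousOn (TH A) (Ioi 0) := Z.continuousOn_TF (Z.PB_af hA)
  have hthc : ContinuousOn (theta m) (Ioi 0) := by
    have h1 := Z.continuousOn_TF (Z.PB_cf bd hA)
    have h4 : Z.TF (Z.cf bd A) = theta m := funext (Z.TF_cf hm)
    rwa [h4] at h1
  have hpos : ∀ d ∈ (Z.K0 bd).divisors, 0 < d := fun d hd => Nat.pos_of_mem_divisors hd
  -- the finite sum
  have e1 : Tw m u k = ∑ d ∈ (Z.K0 bd).divisors, (Z.ee bd A d : ℝ) / d *
      (κ * Wi (TH A) (1 / (Real.exp 1 * q * (d * u))) (rf k)) := by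
    rw [Tw_Wi, Wi_congr (fun v hv => Z.theta_eq_TH hA hm hv) hu, Wi_sum hTHc hpos _ hu hk]
    refine Finset.sum_congr rfl fun d hd => ?_
    have hd0 : (0 : ℝ) < d := by exact_mod_cast hpos d hd
    rw [Wi_fe hq hF.2.2 (by positivity : 0 < (d : ℝ) * u)]
  -- the infinite sum
  have e2 : ∀ w : ℝ, 0 < w → HasSum (fun a : ℕ => (Z.sf bd A a : ℝ) / a * Tw m (a * w) (rf k))
      (Wi (TH A) w (rf k)) := by
    intro w hw
    refine Wi_series hthc (fun a => (Z.sf bd A a : ℝ)) (by simp) (fun a => (Z.PB_sf bd hA).le_sq a)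
      (fun w hw => ?_) (fun u hu => Z.TH_eq_theta hA hm hu) hw (rf_Kn hk)
    have h4 : Z.TF (Z.cf bd A) = theta m := funext (Z.TF_cf hm)
    rw [← h4]
    exact TF_dom (Z.PB_cf bd hA) hw
  have hκ : κ ^ 2 = 1 := by rcases hF.2.1 with h | h <;> rw [h] <;> norm_num
  -- the bound for the infinite sum
  have b2 : ∀ w : ℝ, 0 < w → ENNReal.ofReal (Wi (TH A) w (rf k) ^ 2) ≤
      Z.W2 bd * ∑' a : ℕ, ENNReal.ofReal (bw bd a) *
        ENNReal.ofReal (Tw m (a * w) (rf k) ^ 2) := by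
    intro w hw
    have h1 := Z.ofReal_abs_le_tsum (e2 w hw)
    have h2 := Z.cs' (fun a : ℕ => ENNReal.ofReal |(Z.sf bd A a : ℝ) / a * Tw m (a * w) (rf k)|)
      (fun a : ℕ => ENNReal.ofReal (bw bd a))
      (fun a : ℕ => ENNReal.ofReal (bw bd a) * ENNReal.ofReal (Tw m (a * w) (rf k) ^ 2)) (by
        intro a
        rw [← ENNReal.ofReal_pow (abs_nonneg _), ← ENNReal.ofReal_mul (bw_nonneg _ _),
          ← ENNReal.ofReal_mul (bw_nonneg _ _)]
        apply ENNReal.ofReal_le_ofReal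
        rw [sq_abs, mul_pow]
        have h3 := sf_le_bw bd hA a
        have h4 : ((Z.sf bd A a : ℝ) / a) ^ 2 ≤ bw bd a ^ 2 := by
          rw [← sq_abs ((Z.sf bd A a : ℝ) / a)]
          have h5 : |(Z.sf bd A a : ℝ) / a| = |(Z.sf bd A a : ℝ)| / a := by
            rw [abs_div, Nat.abs_cast]
          rw [h5]
          have h6 : 0 ≤ |(Z.sf bd A a : ℝ)| / a := by positivity
          gcongr
        calc ((Z.sf bd A a : ℝ) / a) ^ 2 * Tw m (a * w) (rf k) ^ 2 ≤
            bw bd a ^ 2 * Tw m (a * w) (rf k) ^ 2 := by gcongr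
          _ = _ := by ring)
    calc ENNReal.ofReal (Wi (TH A) w (rf k) ^ 2) = ENNReal.ofReal |Wi (TH A) w (rf k)| ^ 2 := by
          rw [← ENNReal.ofReal_pow (abs_nonneg _), sq_abs]
      _ ≤ (∑' a : ℕ, ENNReal.ofReal |(Z.sf bd A a : ℝ) / a * Tw m (a * w) (rf k)|) ^ 2 := by
          gcongr
      _ ≤ _ := h2
  -- the bound for the finite sum
  have b1 : ENNReal.ofReal (Tw m u k ^ 2) ≤ Z.W1 bd * ∑ d ∈ (Z.K0 bd).divisors,
      ENNReal.ofReal (Z.wt d) *
        ENNReal.ofReal (Wi (TH A) (1 / (Real.exp 1 * q * (d * u))) (rf k) ^ 2) := by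
    have h1 : (Tw m u k) ^ 2 ≤ (∑ d ∈ (Z.K0 bd).divisors, Z.wt d) * ∑ d ∈ (Z.K0 bd).divisors,
        Z.wt d * Wi (TH A) (1 / (Real.exp 1 * q * (d * u))) (rf k) ^ 2 := by
      rw [e1]
      refine Finset.sum_sq_le_sum_mul_sum_of_sq_le_mul _ (fun d _ => Z.wt_nonneg d)
        (fun d _ => mul_nonneg (Z.wt_nonneg d) (sq_nonneg _)) fun d _ => ?_
      have h3 : |(Z.ee bd A d : ℝ) / d| ≤ Z.wt d := by
        rw [abs_div, Nat.abs_cast]
        unfold Z.wt
        gcongr
        exact Z.PB_ee bd hA d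
      have h4 : ((Z.ee bd A d : ℝ) / d) ^ 2 ≤ Z.wt d ^ 2 := by
        rw [← sq_abs ((Z.ee bd A d : ℝ) / d)]
        gcongr
      rw [mul_pow, mul_pow, hκ, one_mul]
      calc ((Z.ee bd A d : ℝ) / d) ^ 2 * Wi (TH A) (1 / (Real.exp 1 * q * (d * u))) (rf k) ^ 2 ≤
          Z.wt d ^ 2 * Wi (TH A) (1 / (Real.exp 1 * q * (d * u))) (rf k) ^ 2 := by gcongr
        _ = _ := by ring
    calc ENNReal.ofReal (Tw m u k ^ 2) ≤ ENNReal.ofReal ((∑ d ∈ (Z.K0 bd).divisors, Z.wt d) *
        ∑ d ∈ (Z.K0 bd).divisors,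
          Z.wt d * Wi (TH A) (1 / (Real.exp 1 * q * (d * u))) (rf k) ^ 2) :=
          ENNReal.ofReal_le_ofReal h1
      _ = _ := by
          rw [ENNReal.ofReal_mul (Finset.sum_nonneg fun d _ => Z.wt_nonneg d),
            ENNReal.ofReal_sum_of_nonneg fun d _ => Z.wt_nonneg d,
            ENNReal.ofReal_sum_of_nonneg fun d _ => mul_nonneg (Z.wt_nonneg d) (sq_nonneg _)]
          unfold Z.W1
          congr 1
          refine Finset.sum_congr rfl fun d _ => ?_
          rw [ENNReal.ofReal_mul (Z.wt_nonneg d)]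
  refine b1.trans ?_
  gcongr with d hd
  have hd0 : (0 : ℝ) < d := by exact_mod_cast hpos d hd
  exact b2 _ (by positivity)

/-- the dyadic block -/
noncomputable def blk (X : ℕ) : Finset ℤ := (sqZ X).filter (fun m => X < 2 * m.natAbs)

lemma blk_split (X : ℕ) (u : ℝ) (k : ℝ → ℝ) :
    MT X u k = (∑ m ∈ blk X, Tw m u k ^ 2) + MT (X / 2) u k := by
  unfold MT blk
  rw [← Finset.sum_filter_add_sum_filter_not (sqZ X) (fun m => X < 2 * m.natAbs)]
  congr 1
  refine Finset.sum_congr ?_ fun _ _ => rfl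
  ext m
  simp only [Finset.mem_filter, mem_sqZ, not_lt]
  constructor
  · rintro ⟨⟨h1, h2⟩, h3⟩
    exact ⟨by omega, h2⟩
  · rintro ⟨h1, h2⟩
    exact ⟨⟨by omega, h2⟩, by omega⟩

/-- the shifted points: one `a`, one `d` -/
lemma block_near {X n : ℕ} {B c₀ : ℝ}
    (H : ∀ u : ℝ, c₀ / X ≤ u → ∀ k, Kn n k → MT X u k ≤ B * X)
    (hth : ∀ m : ℤ, Squarefree m → ContinuousOn (theta m) (Ioi 0))
    {v T : ℝ} (hv0 : 0 < v) (hv : c₀ / X ≤ v) (hT : 0 ≤ T) (t : ℤ → ℝ)
    (ht : ∀ m ∈ blk X, 0 ≤ t m ∧ t m ≤ T) {k : ℝ → ℝ} (hk : Kn (n + 1) k) :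
    ∑ m ∈ blk X, Tw m (v * Real.exp (t m)) k ^ 2 ≤ (2 + 2 * T ^ 2) * (B * X) := by
  have hd : Kn n (deriv k) := hk.deriv
  have hX0 : (0 : ℝ) ≤ X := Nat.cast_nonneg X
  have hsq : ∀ m ∈ blk X, Squarefree m := by
    intro m hm
    unfold blk at hm
    rw [Finset.mem_filter, mem_sqZ] at hm
    exact hm.1.2
  have hsub : ∀ (u : ℝ) (k' : ℝ → ℝ), ∑ m ∈ blk X, Tw m u k' ^ 2 ≤ MT X u k' := by
    intro u k'
    unfold MT blk
    exact Finset.sum_le_sum_of_subset_of_nonneg (Finset.filter_subset _ _) fun _ _ _ => sq_nonneg _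
  have h1 : ∑ m ∈ blk X, Tw m (v * Real.exp (t m)) k ^ 2 ≤
      ∑ m ∈ blk X, (2 * Tw m v k ^ 2 +
        2 * T * ∫ s in (0 : ℝ)..T, Tw m (v * Real.exp s) (deriv k) ^ 2) := by
    refine Finset.sum_le_sum fun m hm => ?_
    exact Wi_near (hth m (hsq m hm)) hv0 hk (ht m hm).1 (ht m hm).2
  refine h1.trans ?_
  rw [Finset.sum_add_distrib, ← Finset.mul_sum, ← Finset.mul_sum,
    ← intervalIntegral.integral_finsetSum]
  · have h2 : ∑ m ∈ blk X, Tw m v k ^ 2 ≤ B * X :=
      (hsub v k).trans (H v hv k (hk.mono (by omega)))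
    have h3 : ∫ s in (0 : ℝ)..T, ∑ m ∈ blk X, Tw m (v * Real.exp s) (deriv k) ^ 2 ≤
        ∫ _ in (0 : ℝ)..T, B * X := by
      apply intervalIntegral.integral_mono_on hT
      · apply Continuous.intervalIntegrable
        refine continuous_finsetSum _ fun m hm => ?_
        exact (Wi_cont (hth m (hsq m hm)) hv0 hd).pow 2
      · exact continuous_const.intervalIntegrable _ _
      · intro s hs
        refine (hsub _ _).trans (H _ ?_ _ hd)
        have h4 : 1 ≤ Real.exp s := Real.one_le_exp hs.1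
        nlinarith
    rw [intervalIntegral.integral_const, sub_zero, smul_eq_mul] at h3
    have h5 : 2 * T * ∫ s in (0 : ℝ)..T, ∑ m ∈ blk X, Tw m (v * Real.exp s) (deriv k) ^ 2 ≤
        2 * T * (T * (B * X)) := by gcongr
    calc 2 * ∑ m ∈ blk X, Tw m v k ^ 2 + 2 * T * ∫ s in (0 : ℝ)..T, ∑ m ∈ blk X,
        Tw m (v * Real.exp s) (deriv k) ^ 2 ≤ 2 * (B * X) + 2 * T * (T * (B * X)) := by gcongr
      _ = _ := by ring
  · intro m hm
    exact ((Wi_cont (hth m (hsq m hm)) hv0 hd).pow 2).intervalIntegrable _ _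

lemma W12 : (Z.W1 bd * Z.W1 bd * (Z.W2 bd * Z.W2 bd)) ≠ ⊤ :=
  ENNReal.mul_ne_top (ENNReal.mul_ne_top (Z.W1_ne_top _) (Z.W1_ne_top _))
    (ENNReal.mul_ne_top (Z.W2_ne_top _) (Z.W2_ne_top _))

end FE

open FE

/-- Module S4 -/
theorem pfFE [Crv] (hTF : StTF) : StFE := by
  obtain ⟨k₀, hk₀, hdata⟩ := hTF
  choose! A q κ hA hF hm hq1 hq2 using hdata
  have hk0 : (1 : ℝ) ≤ k₀ := by exact_mod_cast hk₀
  have hK0 : (1 : ℝ) ≤ Z.K0 bd := by exact_mod_cast Nat.one_le_iff_ne_zero.2 (Z.K0_ne bd)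
  have hth : ∀ m : ℤ, Squarefree m → ContinuousOn (theta m) (Ioi 0) := by
    intro m hsm
    have h1 := Z.continuousOn_TF (Z.PB_cf bd (hA m hsm))
    have h4 : Z.TF (Z.cf bd (A m)) = theta m := funext (Z.TF_cf (hm m hsm))
    rwa [h4] at h1
  set c₀ : ℝ := 1 / (2 * k₀ * Z.K0 bd) with hc₀
  have hc0 : 0 < c₀ := by positivity
  set T : ℝ := Real.log (4 * (k₀ : ℝ) ^ 4) with hTdef
  have hT : 0 ≤ T := by
    apply Real.log_nonneg
    have : (1 : ℝ) ≤ (k₀ : ℝ) ^ 4 := one_le_pow₀ hk0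
    linarith
  set W : ℝ≥0∞ := Z.W1 bd * Z.W1 bd * (Z.W2 bd * Z.W2 bd) with hW
  set C₁ : ℝ := W.toReal * (2 + 2 * T ^ 2) + 1 with hC₁
  have hW0 : 0 ≤ W.toReal := ENNReal.toReal_nonneg
  have hC1 : 1 ≤ C₁ := by
    rw [hC₁]
    have : 0 ≤ W.toReal * (2 + 2 * T ^ 2) := by positivity
    linarith
  refine ⟨c₀, hc0, fun n => ⟨2 * C₁, by linarith, ?_⟩⟩
  intro X B hX hB H u hu k hk
  -- the bound for one block
  have hblock : ∀ Y : ℕ, 1 ≤ Y → Y ≤ X → ∑ m ∈ blk Y, Tw m u k ^ 2 ≤ C₁ * (B * Y) := by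
    intro Y hY hYX
    have hY0 : (0 : ℝ) < Y := by exact_mod_cast hY
    have hBY : 0 ≤ B * Y := by positivity
    rcases le_or_gt (c₀ / Y) u with hc | hc
    · have h1 : ∑ m ∈ blk Y, Tw m u k ^ 2 ≤ MT Y u k := by
        unfold MT blk
        exact Finset.sum_le_sum_of_subset_of_nonneg (Finset.filter_subset _ _)
          fun _ _ _ => sq_nonneg _
      have h2 := H Y hY hYX u hc k (hk.mono (by omega))
      nlinarith
    have hmem : ∀ m ∈ blk Y, Squarefree m ∧ |(m : ℝ)| ≤ Y ∧ (Y : ℝ) < 2 * |(m : ℝ)| := by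
      intro m hmY
      unfold blk at hmY
      rw [Finset.mem_filter, mem_sqZ] at hmY
      have e : |(m : ℝ)| = (m.natAbs : ℝ) := by
        rw [Nat.cast_natAbs, Int.cast_abs]
      rw [e]
      exact ⟨hmY.1.2, by exact_mod_cast hmY.1.1, by exact_mod_cast hmY.2⟩
    -- one `d`, one `a`
    have hda : ∀ d ∈ (Z.K0 bd).divisors, ∀ a : ℕ, 0 < a → ∑ m ∈ blk Y,
        Tw m (a * (1 / (Real.exp 1 * q m * (d * u)))) (rf k) ^ 2 ≤
          (2 + 2 * T ^ 2) * (B * Y) := by
      intro d hd a ha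
      have hd0 : (0 : ℝ) < d := by exact_mod_cast Nat.pos_of_mem_divisors hd
      have hdK : (d : ℝ) ≤ Z.K0 bd := by
        exact_mod_cast Nat.le_of_dvd (Nat.pos_of_ne_zero (Z.K0_ne bd)) (Nat.dvd_of_mem_divisors hd)
      have ha1 : (1 : ℝ) ≤ a := by exact_mod_cast ha
      set Q : ℝ := (k₀ : ℝ) ^ 2 * Y ^ 2 with hQ
      have hQ0 : 0 < Q := by positivity
      set v : ℝ := a * (1 / (Real.exp 1 * Q * (d * u))) with hv
      have hv0 : 0 < v := by positivity
      have hvc : c₀ / Y ≤ v := by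
        rw [hv, hQ, div_le_iff₀ hY0]
        have hu1 : u ≤ c₀ / Y := hc.le
        have he : Real.exp 1 ≤ 4 := by
          have := Real.exp_one_lt_d9
          linarith
        have h1 : Real.exp 1 * ((k₀ : ℝ) ^ 2 * Y ^ 2) * (d * u) ≤
            4 * ((k₀ : ℝ) ^ 2 * Y ^ 2) * (Z.K0 bd * (c₀ / Y)) := by gcongr
        have h2 : 4 * ((k₀ : ℝ) ^ 2 * Y ^ 2) * (Z.K0 bd * (c₀ / Y)) = 2 * k₀ * Y := by
          rw [hc₀]
          field_simp
          ring
        rw [h2] at h1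
        have h3 : 1 / (2 * (k₀ : ℝ) * Y) ≤ 1 / (Real.exp 1 * ((k₀ : ℝ) ^ 2 * Y ^ 2) * (d * u)) :=
          one_div_le_one_div_of_le (by positivity) h1
        calc c₀ = 1 / (2 * k₀ * Z.K0 bd) := hc₀
          _ ≤ 1 / (2 * k₀ * 1) := by gcongr
          _ = 1 * (1 / (2 * (k₀ : ℝ) * Y)) * Y := by field_simp
          _ ≤ a * (1 / (Real.exp 1 * ((k₀ : ℝ) ^ 2 * Y ^ 2) * (d * u))) * Y := by gcongr
      have key := block_near (X := Y) (n := n) (B := B) (c₀ := c₀)
        (fun u hu k hk => H Y hY hYX u hu k hk) hth hv0 hvc hT (fun m => Real.log (Q / q m)) ?_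
        (rf_Kn hk)
      · refine le_trans (le_of_eq ?_) key
        refine Finset.sum_congr rfl fun m hmY => ?_
        obtain ⟨h1, h2, h3⟩ := hmem m hmY
        have hqm : 0 < q m := (hF m h1).1
        congr 2
        rw [Real.exp_log (by positivity), hv]
        field_simp
      · intro m hmY
        obtain ⟨h1, h2, h3⟩ := hmem m hmY
        have hqm : 0 < q m := (hF m h1).1
        have hm0 : 0 < |(m : ℝ)| := by linarith
        have g1 := hq1 m h1
        have g2 := hq2 m h1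
        have hs : √(q m) ^ 2 = q m := Real.sq_sqrt hqm.le
        have hs0 : 0 ≤ √(q m) := Real.sqrt_nonneg _
        have g3 : q m ≤ Q := by
          rw [← hs, hQ, ← mul_pow]
          gcongr
          exact g2.trans (by gcongr)
        have g4 : (Y : ℝ) / (2 * k₀) ≤ √(q m) := by
          refine le_trans ?_ g1
          rw [div_le_div_iff₀ (by positivity) (by positivity)]
          nlinarith
        have g5 : Q ≤ 4 * (k₀ : ℝ) ^ 4 * q m := by
          have g6 : ((Y : ℝ) / (2 * k₀)) ^ 2 ≤ √(q m) ^ 2 := by gcongr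
          rw [hs] at g6
          calc Q = 4 * (k₀ : ℝ) ^ 4 * ((Y : ℝ) / (2 * k₀)) ^ 2 := by
                rw [hQ]; field_simp; ring
            _ ≤ _ := by gcongr
        constructor
        · apply Real.log_nonneg
          rw [one_le_div hqm]
          exact g3
        · rw [hTdef]
          apply Real.log_le_log (by positivity)
          rw [div_le_iff₀ hqm]
          exact g5
    -- summation
    have h1 : ∑ m ∈ blk Y, ENNReal.ofReal (Tw m u k ^ 2) ≤
        W * ENNReal.ofReal ((2 + 2 * T ^ 2) * (B * Y)) := by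
      calc ∑ m ∈ blk Y, ENNReal.ofReal (Tw m u k ^ 2) ≤ ∑ m ∈ blk Y, Z.W1 bd *
            ∑ d ∈ (Z.K0 bd).divisors, ENNReal.ofReal (Z.wt d) *
            (Z.W2 bd * ∑' a : ℕ, ENNReal.ofReal (bw bd a) *
            ENNReal.ofReal (Tw m (a * (1 / (Real.exp 1 * q m * (d * u)))) (rf k) ^ 2)) := by
            refine Finset.sum_le_sum fun m hmY => ?_
            obtain ⟨h1, -, -⟩ := hmem m hmY
            exact pointwise (hA m h1) (hF m h1) (hm m h1) hu (hk.mono (Nat.zero_le _))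
        _ = Z.W1 bd * ∑ d ∈ (Z.K0 bd).divisors, ENNReal.ofReal (Z.wt d) *
            (Z.W2 bd * ∑' a : ℕ, ENNReal.ofReal (bw bd a) * ∑ m ∈ blk Y,
            ENNReal.ofReal (Tw m (a * (1 / (Real.exp 1 * q m * (d * u)))) (rf k) ^ 2)) := by
            rw [← Finset.mul_sum, Finset.sum_comm]
            congr 1
            refine Finset.sum_congr rfl fun d _ => ?_
            rw [← Finset.mul_sum, ← Finset.mul_sum]
            congr 2
            rw [← Summable.tsum_finsetSum fun _ _ => ENNReal.summable]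
            refine tsum_congr fun a => ?_
            rw [← Finset.mul_sum]
        _ ≤ Z.W1 bd * ∑ d ∈ (Z.K0 bd).divisors, ENNReal.ofReal (Z.wt d) *
            (Z.W2 bd * ∑' a : ℕ, ENNReal.ofReal (bw bd a) *
              ENNReal.ofReal ((2 + 2 * T ^ 2) * (B * Y))) := by
            refine mul_le_mul' le_rfl (Finset.sum_le_sum fun d hd => mul_le_mul' le_rfl
              (mul_le_mul' le_rfl (ENNReal.tsum_le_tsum fun a => ?_)))
            rcases Nat.eq_zero_or_pos a with h0 | h0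
            · subst h0
              rw [bw_zero]
              simp
            · refine mul_le_mul' le_rfl ?_
              rw [← ENNReal.ofReal_sum_of_nonneg fun _ _ => sq_nonneg _]
              exact ENNReal.ofReal_le_ofReal (hda d hd a h0)
        _ = _ := by
            rw [ENNReal.tsum_mul_right, ← W2_eq, ← Finset.sum_mul, hW]
            unfold Z.W1
            ring
    have h2 : ENNReal.ofReal (∑ m ∈ blk Y, Tw m u k ^ 2) ≤
        ENNReal.ofReal (W.toReal * ((2 + 2 * T ^ 2) * (B * Y))) := by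
      rw [ENNReal.ofReal_sum_of_nonneg fun _ _ => sq_nonneg _, ENNReal.ofReal_mul hW0,
        ENNReal.ofReal_toReal W12]
      exact h1
    have h3 := (ENNReal.ofReal_le_ofReal_iff (by positivity)).1 h2
    calc ∑ m ∈ blk Y, Tw m u k ^ 2 ≤ W.toReal * ((2 + 2 * T ^ 2) * (B * Y)) := h3
      _ ≤ C₁ * (B * Y) := by
          rw [hC₁]
          nlinarith
  -- dyadic summation
  have hmain : ∀ Y : ℕ, Y ≤ X → MT Y u k ≤ 2 * C₁ * B * Y := by
    intro Y
    induction Y using Nat.strong_induction_on with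
    | _ Y ih =>
      intro hYX
      rcases Nat.eq_zero_or_pos Y with h0 | h0
      · subst h0
        have : sqZ 0 = ∅ := by
          ext m
          rw [mem_sqZ]
          simp only [Finset.notMem_empty, iff_false, not_and]
          intro h1 h2
          have : m = 0 := by omega
          rw [this] at h2
          exact not_squarefree_zero h2
        unfold MT
        rw [this]
        simp
      · rw [blk_split]
        have h1 := hblock Y h0 hYX
        have h2 := ih (Y / 2) (by omega) (by omega)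
        have h3 : ((Y / 2 : ℕ) : ℝ) ≤ Y / 2 := Nat.cast_div_le
        have h4 : 2 * C₁ * B * ((Y / 2 : ℕ) : ℝ) ≤ 2 * C₁ * B * (Y / 2) := by gcongr
        calc (∑ m ∈ blk Y, Tw m u k ^ 2) + MT (Y / 2) u k ≤
            C₁ * (B * Y) + 2 * C₁ * B * (Y / 2) := by linarith
          _ = _ := by ring
  exact hmain X le_rfl

end P004E
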