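import Vale.Agent.P004E.H394.K2
import Vale.Agent.P004G.H175.Z1
import Vale.Agent.P004G.H175.ZR

/-!
# P004E, module S4, part 1: windows of a general function

`Wi f u k = ∫ u e^x f(u e^x) k x dx` for `f` continuous on `(0,∞)`, `k` a window.
-/

open Real MeasureTheory Set Filter
open scoped ENNReal Topology

namespace P004E

open P004G

namespace FE

/-- the window functional of `f` -/
noncomputable def Wi (f : ℝ → ℝ) (u : ℝ) (k : ℝ → ℝ) : ℝ :=
  ∫ x, u * Real.exp x * f (u * Real.exp x) * k x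

/-- the reflected window -/
def rf (k : ℝ → ℝ) (x : ℝ) : ℝ := k (1 - x)

lemma rf_Kn {n : ℕ} {k : ℝ → ℝ} (hk : Kn n k) : Kn n (rf k) where
  smooth := hk.smooth.comp (contDiff_const.sub contDiff_id)
  supp := fun x hx => by
    have := hk.supp (1 - x) hx
    constructor <;> linarith [this.1, this.2]
  bound := fun i hi x => by
    have h : iteratedDeriv i (rf k) x = (-1 : ℝ) ^ i • iteratedDeriv i k (1 - x) := by
      have := congrFun (iteratedDeriv_comp_const_sub (n := i) (f := k) (s := (1 : ℝ))) x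
      exact this
    rw [h, smul_eq_mul, abs_mul, abs_pow, abs_neg, abs_one, one_pow, one_mul]
    exact hk.bound i hi _

lemma cont_exp {f : ℝ → ℝ} (hf : ContinuousOn f (Ioi 0)) {u : ℝ} (hu : 0 < u) :
    Continuous fun x : ℝ => u * Real.exp x * f (u * Real.exp x) := by
  have h1 : Continuous fun x : ℝ => f (u * Real.exp x) :=
    hf.comp_continuous (by fun_prop) fun x => by
      show 0 < u * Real.exp x
      positivity
  exact (by fun_prop : Continuous fun x : ℝ => u * Real.exp x).mul h1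

lemma cont_mul {n : ℕ} {f : ℝ → ℝ} (hf : ContinuousOn f (Ioi 0)) {u : ℝ} (hu : 0 < u)
    {k : ℝ → ℝ} (hk : Kn n k) : Continuous fun x : ℝ => u * Real.exp x * f (u * Real.exp x) * k x :=
  (cont_exp hf hu).mul hk.cont

lemma integrable_Wi {n : ℕ} {f : ℝ → ℝ} (hf : ContinuousOn f (Ioi 0)) {u : ℝ} (hu : 0 < u)
    {k : ℝ → ℝ} (hk : Kn n k) : Integrable fun x : ℝ => u * Real.exp x * f (u * Real.exp x) * k x := by
  refine (cont_mul hf hu hk).integrable_of_hasCompactSupport ?_
  refine HasCompactSupport.intro (isCompact_Icc (a := (0 : ℝ)) (b := 1)) fun x hx => ?_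
  rw [hk.eq_zero hx, mul_zero]

lemma Wi_congr {f g : ℝ → ℝ} (h : ∀ u, 0 < u → f u = g u) {u : ℝ} (hu : 0 < u) (k : ℝ → ℝ) :
    Wi f u k = Wi g u k := by
  unfold Wi
  refine integral_congr_ae (Eventually.of_forall fun x => ?_)
  simp only
  rw [h _ (by positivity)]

/-- dilates -/
lemma Wi_dil (f : ℝ → ℝ) {a : ℝ} (ha : 0 < a) (u : ℝ) (k : ℝ → ℝ) :
    ∫ x, u * Real.exp x * f (a * (u * Real.exp x)) * k x = Wi f (a * u) k / a := by
  unfold Wi
  rw [← integral_div]
  refine integral_congr_ae (Eventually.of_forall fun x => ?_)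
  simp only
  rw [mul_assoc a u]
  field_simp

/-- finite combinations of dilates -/
lemma Wi_sum {n : ℕ} {g : ℝ → ℝ} (hg : ContinuousOn g (Ioi 0)) {s : Finset ℕ} (hs : ∀ a ∈ s, 0 < a)
    (c : ℕ → ℝ) {u : ℝ} (hu : 0 < u) {k : ℝ → ℝ} (hk : Kn n k) :
    Wi (fun v => ∑ a ∈ s, c a * g (a * v)) u k = ∑ a ∈ s, c a / a * Wi g (a * u) k := by
  have h1 : Wi (fun v => ∑ a ∈ s, c a * g (a * v)) u k =
      ∫ x, ∑ a ∈ s, c a * (u * Real.exp x * g (a * (u * Real.exp x)) * k x) := by
    unfold Wi
    refine integral_congr_ae (Eventually.of_forall fun x => ?_)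
    simp only
    rw [Finset.mul_sum, Finset.sum_mul]
    exact Finset.sum_congr rfl fun a _ => by ring
  rw [h1, integral_finsetSum]
  · refine Finset.sum_congr rfl fun a ha => ?_
    have ha0 : (0 : ℝ) < a := by exact_mod_cast hs a ha
    rw [integral_const_mul, Wi_dil g ha0]
    ring
  · intro a ha
    have ha0 : (0 : ℝ) < a := by exact_mod_cast hs a ha
    have h2 : ContinuousOn (fun v => g (a * v)) (Ioi 0) :=
      hg.comp (by fun_prop) fun v hv => mul_pos ha0 hv
    exact (integrable_Wi h2 hu hk).const_mul _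

/-- the functional equation for windows -/
lemma Wi_fe {f : ℝ → ℝ} {q κ : ℝ} (hq : 0 < q)
    (hfe : ∀ u : ℝ, 0 < u → f u = κ / (q * u ^ 2) * f (1 / (q * u))) {u : ℝ} (hu : 0 < u)
    (k : ℝ → ℝ) : Wi f u k = κ * Wi f (1 / (Real.exp 1 * q * u)) (rf k) := by
  unfold Wi
  rw [← integral_const_mul]
  have h1 := integral_sub_left_eq_self (fun x => κ * (1 / (Real.exp 1 * q * u) * Real.exp x *
    f (1 / (Real.exp 1 * q * u) * Real.exp x) * rf k x)) volume (1 : ℝ)
  rw [← h1]
  refine integral_congr_ae (Eventually.of_forall fun x => ?_)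
  simp only [rf, sub_sub_cancel]
  have e1 : 1 / (Real.exp 1 * q * u) * Real.exp (1 - x) = 1 / (q * (u * Real.exp x)) := by
    rw [Real.exp_sub]
    field_simp
  rw [e1, hfe (u * Real.exp x) (by positivity)]
  field_simp

/-- infinite combinations of dilates -/
lemma Wi_series {F G : ℝ → ℝ} (hG : ContinuousOn G (Ioi 0)) (c : ℕ → ℝ) (hc0 : c 0 = 0)
    (hc : ∀ a : ℕ, |c a| ≤ (a : ℝ) ^ 2)
    (hM : ∀ w : ℝ, 0 < w → ∃ M : ℝ, 0 ≤ M ∧ ∀ v : ℝ, w ≤ v → |G v| ≤ M * Real.exp (-v))
    (h : ∀ u, 0 < u → HasSum (fun a : ℕ => c a * G (a * u)) (F u)) {u : ℝ} (hu : 0 < u)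
    {k : ℝ → ℝ} (hk : Kn 0 k) :
    HasSum (fun a : ℕ => c a / a * Wi G (a * u) k) (Wi F u k) := by
  obtain ⟨M, hM0, hM1⟩ := hM u hu
  set f : ℕ → ℝ → ℝ := fun a x => u * Real.exp x * (c a * G (a * (u * Real.exp x))) * k x with hf
  have hs := Real.summable_pow_mul_exp_neg_nat_mul 2 hu
  have hb : ∀ a x, ‖f a x‖ ≤ (Icc (0 : ℝ) 1).indicator
      (fun _ => u * Real.exp 1 * M * ((a : ℝ) ^ 2 * Real.exp (-u * a))) x := by
    intro a x
    rw [Real.norm_eq_abs]
    refine win_dom (f := fun x => u * Real.exp x * (c a * G (a * (u * Real.exp x))))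
      hk (by positivity) (fun x hx => ?_) x
    rcases Nat.eq_zero_or_pos a with h0 | h0
    · subst h0
      rw [hc0]; simp
    have ha1 : (1 : ℝ) ≤ a := by exact_mod_cast h0
    have h1 : Real.exp x ≤ Real.exp 1 := Real.exp_le_exp.2 hx.2
    have h2 : 1 ≤ Real.exp x := by rw [← Real.exp_zero]; exact Real.exp_le_exp.2 hx.1
    have h3 : u * 1 ≤ u * Real.exp x := mul_le_mul_of_nonneg_left h2 hu.le
    have h4 : a * u ≤ a * (u * Real.exp x) := by
      apply mul_le_mul_of_nonneg_left _ (by positivity)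
      linarith
    have h5 : u ≤ a * (u * Real.exp x) := by nlinarith
    have h6 : |G (a * (u * Real.exp x))| ≤ M * Real.exp (-u * a) := by
      refine (hM1 _ h5).trans ?_
      gcongr
      linarith
    rw [abs_mul, abs_mul (c a), abs_of_pos (by positivity : 0 < u * Real.exp x)]
    calc u * Real.exp x * (|c a| * |G (a * (u * Real.exp x))|) ≤
        u * Real.exp 1 * ((a : ℝ) ^ 2 * (M * Real.exp (-u * a))) := by
          gcongr
          exact hc a
      _ = _ := by ring
  have hcont : ∀ a, Continuous (f a) := by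
    intro a
    rcases Nat.eq_zero_or_pos a with h0 | h0
    · subst h0
      simp only [hf, hc0, zero_mul, mul_zero]
      exact continuous_const
    have ha0 : (0 : ℝ) < a := by exact_mod_cast h0
    have h2 : ContinuousOn (fun v => c a * G (a * v)) (Ioi 0) :=
      continuousOn_const.mul (hG.comp (by fun_prop) fun v hv => mul_pos ha0 hv)
    exact cont_mul h2 hu hk
  have hint : ∀ a, Integrable (f a) := fun a =>
    (int_ind _).mono' (hcont a).aestronglyMeasurable (Eventually.of_forall (hb a))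
  have hsum : Summable fun a => ∫ x, ‖f a x‖ := by
    refine Summable.of_nonneg_of_le (fun a => integral_nonneg fun _ => norm_nonneg _) (fun a => ?_)
      (hs.mul_left (u * Real.exp 1 * M))
    calc ∫ x, ‖f a x‖ ≤ ∫ x, (Icc (0 : ℝ) 1).indicator
          (fun _ => u * Real.exp 1 * M * ((a : ℝ) ^ 2 * Real.exp (-u * a))) x :=
          integral_mono_of_nonneg (Eventually.of_forall fun _ => norm_nonneg _) (int_ind _)
            (Eventually.of_forall (hb a))
      _ = _ := integral_ind _
  have key := hasSum_integral_of_summable_integral_norm hint hsum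
  have e1 : ∫ x, ∑' a, f a x = Wi F u k := by
    unfold Wi
    refine integral_congr_ae (Eventually.of_forall fun x => ?_)
    simp only [hf]
    rw [tsum_mul_right, tsum_mul_left, (h (u * Real.exp x) (by positivity)).tsum_eq]
  rw [e1] at key
  refine key.congr_fun ?_
  intro a
  simp only [hf]
  rcases Nat.eq_zero_or_pos a with h0 | h0
  · subst h0
    simp [hc0]
  have ha0 : (0 : ℝ) < a := by exact_mod_cast h0
  have e2 : ∀ x, u * Real.exp x * (c a * G (a * (u * Real.exp x))) * k x =
      c a * (u * Real.exp x * G (a * (u * Real.exp x)) * k x) := fun x => by ring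
  simp_rw [e2]
  rw [integral_const_mul, Wi_dil G ha0]
  ring

end FE

end P004E
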