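import Vale.Agent.P004E.H383.FE1

/-!
# P004E, module S4, part 2: shifts of a window
-/

open Real MeasureTheory Set Filter
open scoped ENNReal Topology

namespace P004E

open P004G

namespace FE

lemma cont_G {f : ℝ → ℝ} (hf : ContinuousOn f (Ioi 0)) {v : ℝ} (hv : 0 < v) :
    Continuous fun y : ℝ => v * Real.exp y * f (v * Real.exp y) := cont_exp hf hv

/-- the shifted window as a convolution -/
lemma Wi_shift (f : ℝ → ℝ) (v t : ℝ) (k : ℝ → ℝ) :
    Wi f (v * Real.exp t) k = ∫ y, v * Real.exp y * f (v * Real.exp y) * k (y - t) := by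
  unfold Wi
  have h := integral_sub_right_eq_self (μ := volume) (fun x => v * Real.exp t * Real.exp x *
    f (v * Real.exp t * Real.exp x) * k x) t
  rw [← h]
  refine integral_congr_ae (Eventually.of_forall fun y => ?_)
  simp only
  have e : v * Real.exp t * Real.exp (y - t) = v * Real.exp y := by
    rw [mul_assoc, ← Real.exp_add]
    congr 2
    ring
  rw [e]

/-- continuity in the shift -/
lemma Wi_cont {n : ℕ} {f : ℝ → ℝ} (hf : ContinuousOn f (Ioi 0)) {v : ℝ} (hv : 0 < v)
    {k : ℝ → ℝ} (hk : Kn n k) : Continuous fun t : ℝ => Wi f (v * Real.exp t) k := by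
  have e : (fun t : ℝ => Wi f (v * Real.exp t) k) = fun t : ℝ =>
      ∫ x in Icc (0 : ℝ) 1, v * Real.exp t * Real.exp x * f (v * Real.exp t * Real.exp x) * k x := by
    funext t
    unfold Wi
    rw [setIntegral_eq_integral_of_forall_compl_eq_zero]
    intro x hx
    rw [hk.eq_zero hx, mul_zero]
  rw [e]
  refine continuous_parametric_integral_of_continuous (f := fun t x : ℝ => v * Real.exp t *
    Real.exp x * f (v * Real.exp t * Real.exp x) * k x) ?_ isCompact_Icc
  have h1 : Continuous fun p : ℝ × ℝ => f (v * Real.exp p.1 * Real.exp p.2) :=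
    hf.comp_continuous (by fun_prop) fun p => by
      show 0 < v * Real.exp p.1 * Real.exp p.2
      positivity
  have h2 := hk.cont
  unfold Function.uncurry
  exact ((by fun_prop : Continuous fun p : ℝ × ℝ => v * Real.exp p.1 * Real.exp p.2).mul h1).mul
    (h2.comp continuous_snd)

/-- the derivative in the shift -/
lemma Wi_deriv {n : ℕ} {f : ℝ → ℝ} (hf : ContinuousOn f (Ioi 0)) {v : ℝ} (hv : 0 < v)
    {k : ℝ → ℝ} (hk : Kn (n + 1) k) (t : ℝ) :
    HasDerivAt (fun t : ℝ => Wi f (v * Real.exp t) k) (-Wi f (v * Real.exp t) (deriv k)) t := by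
  have hd : Kn n (deriv k) := hk.deriv
  set G : ℝ → ℝ := fun y => v * Real.exp y * f (v * Real.exp y) with hG
  have hGc : Continuous G := cont_G hf hv
  obtain ⟨M, hM⟩ := (isCompact_Icc (a := t - 1) (b := t + 2)).exists_bound_of_continuousOn
    hGc.continuousOn
  have hM0 : 0 ≤ M := (norm_nonneg _).trans (hM t ⟨by linarith, by linarith⟩)
  have hkd : ∀ x, HasDerivAt k (deriv k x) x := by
    intro x
    have h1 : ContDiff ℝ 1 k := hk.smooth.of_le (by
      have : ((1 : ℕ) : WithTop ℕ∞) ≤ ((n + 1 : ℕ) : WithTop ℕ∞) := by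
        exact_mod_cast (show 1 ≤ n + 1 by omega)
      simp at this ⊢)
    exact (h1.differentiable one_ne_zero x).hasDerivAt
  have key := hasDerivAt_integral_of_dominated_loc_of_deriv_le (μ := volume) (x₀ := t)
    (F := fun (s y : ℝ) => G y * k (y - s)) (F' := fun (s y : ℝ) => G y * (-deriv k (y - s)))
    (s := Metric.ball t 1) (bound := (Icc (t - 1) (t + 2)).indicator fun _ => M)
    (Metric.ball_mem_nhds t one_pos) ?_ ?_ ?_ ?_ ?_ ?_
  · have h1 := key.2
    have e1 : (fun s : ℝ => ∫ y, G y * k (y - s)) = fun s : ℝ => Wi f (v * Real.exp s) k := by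
      funext s
      rw [Wi_shift]
    have e2 : ∫ y, G y * (-deriv k (y - t)) = -Wi f (v * Real.exp t) (deriv k) := by
      rw [Wi_shift, ← integral_neg]
      refine integral_congr_ae (Eventually.of_forall fun y => ?_)
      simp only [hG]
      ring
    rw [e1, e2] at h1
    exact h1
  · refine Eventually.of_forall fun s => ?_
    have := hk.cont
    exact (hGc.mul (this.comp (by fun_prop))).aestronglyMeasurable
  · have h1 : Continuous fun y => G y * k (y - t) := hGc.mul (hk.cont.comp (by fun_prop))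
    refine h1.integrable_of_hasCompactSupport ?_
    refine HasCompactSupport.intro (isCompact_Icc (a := t) (b := t + 1)) fun y hy => ?_
    rw [hk.eq_zero, mul_zero]
    intro h2
    exact hy ⟨by linarith [h2.1], by linarith [h2.2]⟩
  · exact (hGc.mul (hd.cont.comp (by fun_prop)).neg).aestronglyMeasurable
  · refine Eventually.of_forall fun y s hs => ?_
    rw [Metric.mem_ball, Real.dist_eq, abs_lt] at hs
    by_cases hy : y ∈ Icc (t - 1) (t + 2)
    · rw [indicator_of_mem hy, norm_mul, norm_neg]
      calc ‖G y‖ * ‖deriv k (y - s)‖ ≤ M * 1 :=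
            mul_le_mul (hM y hy) (hd.abs_le _) (norm_nonneg _) hM0
        _ = M := mul_one M
    · rw [indicator_of_notMem hy, hd.eq_zero, neg_zero, mul_zero, norm_zero]
      intro h2
      exact hy ⟨by linarith [h2.1, hs.1], by linarith [h2.2, hs.2]⟩
  · rw [integrable_indicator_iff measurableSet_Icc]
    exact integrableOn_const (by simp)
  · refine Eventually.of_forall fun y s _ => ?_
    have h1 : HasDerivAt (fun s : ℝ => y - s) (-1) s := by
      simpa using (hasDerivAt_id s).const_sub y
    have h2 := (hkd (y - s)).comp s h1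
    have h3 := h2.const_mul (G y)
    refine h3.congr_deriv ?_
    ring

/-- comparison of the values at two nearby points -/
lemma Wi_near {n : ℕ} {f : ℝ → ℝ} (hf : ContinuousOn f (Ioi 0)) {v : ℝ} (hv : 0 < v)
    {k : ℝ → ℝ} (hk : Kn (n + 1) k) {t T : ℝ} (ht : 0 ≤ t) (htT : t ≤ T) :
    Wi f (v * Real.exp t) k ^ 2 ≤ 2 * Wi f v k ^ 2 +
      2 * T * ∫ s in (0 : ℝ)..T, Wi f (v * Real.exp s) (deriv k) ^ 2 := by
  have hT : 0 ≤ T := ht.trans htT
  have hd : Kn n (deriv k) := hk.deriv
  have hc := Wi_cont hf hv hd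
  have h1 : ∫ s in (0 : ℝ)..t, -Wi f (v * Real.exp s) (deriv k) =
      Wi f (v * Real.exp t) k - Wi f (v * Real.exp 0) k :=
    intervalIntegral.integral_eq_sub_of_hasDerivAt (fun s _ => Wi_deriv hf hv hk s)
      (hc.neg.intervalIntegrable _ _)
  rw [Real.exp_zero, mul_one] at h1
  set I : ℝ := ∫ s in (0 : ℝ)..t, -Wi f (v * Real.exp s) (deriv k) with hI
  have h2 : I ^ 2 ≤ t * ∫ s in (0 : ℝ)..t, Wi f (v * Real.exp s) (deriv k) ^ 2 := by
    -- `0 ≤ ∫ (g - c)²`
    rcases ht.eq_or_lt with h0 | h0
    · have : I = 0 := by rw [hI, ← h0]; simp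
      rw [this, ← h0]; simp
    · set g : ℝ → ℝ := fun s => -Wi f (v * Real.exp s) (deriv k) with hg
      have hgc : Continuous g := hc.neg
      have h3 : 0 ≤ ∫ s in (0 : ℝ)..t, (g s - I / t) ^ 2 :=
        intervalIntegral.integral_nonneg ht fun s _ => sq_nonneg _
      have h4 : ∫ s in (0 : ℝ)..t, (g s - I / t) ^ 2 =
          (∫ s in (0 : ℝ)..t, g s ^ 2) - 2 * (I / t) * I + (I / t) ^ 2 * t := by
        have e : ∀ s, (g s - I / t) ^ 2 = g s ^ 2 - 2 * (I / t) * g s + (I / t) ^ 2 := fun s => by
          ring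
        simp_rw [e]
        rw [intervalIntegral.integral_add, intervalIntegral.integral_sub,
          intervalIntegral.integral_const_mul, intervalIntegral.integral_const]
        · simp only [sub_zero, smul_eq_mul]
          ring
        · exact (hgc.pow 2).intervalIntegrable _ _
        · exact (continuous_const.mul hgc).intervalIntegrable _ _
        · exact ((hgc.pow 2).sub (continuous_const.mul hgc)).intervalIntegrable _ _
        · exact continuous_const.intervalIntegrable _ _
      have h5 : ∫ s in (0 : ℝ)..t, g s ^ 2 =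
          ∫ s in (0 : ℝ)..t, Wi f (v * Real.exp s) (deriv k) ^ 2 := by
        refine intervalIntegral.integral_congr fun s _ => ?_
        simp only [hg]
        ring
      rw [h4, h5] at h3
      have h6 : (I / t) ^ 2 * t = I ^ 2 / t := by field_simp
      have h7 : 2 * (I / t) * I = 2 * (I ^ 2 / t) := by ring
      rw [h6, h7] at h3
      have h8 : I ^ 2 / t ≤ ∫ s in (0 : ℝ)..t, Wi f (v * Real.exp s) (deriv k) ^ 2 := by linarith
      rw [div_le_iff₀ h0] at h8
      linarith
  have h3 : ∫ s in (0 : ℝ)..t, Wi f (v * Real.exp s) (deriv k) ^ 2 ≤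
      ∫ s in (0 : ℝ)..T, Wi f (v * Real.exp s) (deriv k) ^ 2 := by
    apply intervalIntegral.integral_mono_interval le_rfl ht htT
    · exact Eventually.of_forall fun s => sq_nonneg _
    · exact (hc.pow 2).intervalIntegrable _ _
  have h4 : 0 ≤ ∫ s in (0 : ℝ)..T, Wi f (v * Real.exp s) (deriv k) ^ 2 :=
    intervalIntegral.integral_nonneg hT fun s _ => sq_nonneg _
  have h5 : I ^ 2 ≤ T * ∫ s in (0 : ℝ)..T, Wi f (v * Real.exp s) (deriv k) ^ 2 :=
    h2.trans (mul_le_mul htT h3 (intervalIntegral.integral_nonneg ht fun s _ => sq_nonneg _) hT)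
  have h6 : Wi f (v * Real.exp t) k = Wi f v k + I := by linarith
  rw [h6]
  nlinarith [sq_nonneg (Wi f v k - I)]

end FE

end P004E
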